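import Crest.Agent.Helper68.S0076.Defs

/-!
# S0076 log-spread lemma, leaf CV (helper73): coverage

`Cseq G Z T U` is the number of `T`-tuples `(g₁, …, g_T)` with `g₁ • Z ∪ … ∪ g_T • Z = U`.
For a predicate `P` on sets with `P ∅` and `P (U ∪ V) ↔ P U ∧ P V` the tuples whose union
satisfies `P` are exactly the tuples all of whose members satisfy `P`
(`sum_Cseq_of_pred`).  With `P = (· ⊆ B)` and `P = (· ⊆ B ∧ x ∉ ·)` this gives `cover`.
-/

set_option autoImplicit false

namespace Crest.Agent.Helper73.S0076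

open Finset Crest.Agent.Helper68.S0076
open scoped Pointwise

variable {G : Type*} {X : Type*} [Group G] [Fintype G] [Fintype X] [DecidableEq X] [MulAction G X]

/-- private copy of leaf P -/
theorem sum_mul_push_aux (Z : Finset X) (wt : Finset X → G → ℝ) (f h : Finset X → ℝ) :
    ∑ U' : Finset X, h U' * push Z wt f U'
      = ∑ U : Finset X, ∑ g : G, h (U ∪ g • Z) * (f U * wt U g) := by
  unfold push
  simp_rw [Finset.mul_sum]
  rw [Finset.sum_comm]
  refine Finset.sum_congr rfl (fun U _ => ?_)
  rw [Finset.sum_comm]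
  refine Finset.sum_congr rfl (fun g _ => ?_)
  simp [mul_ite]

theorem Cseq_succ (Z : Finset X) (T : ℕ) :
    Cseq G Z (T + 1) = push Z (fun (_ : Finset X) (_ : G) => (1 : ℝ)) (Cseq G Z T) := rfl

theorem Cseq_zero (Z : Finset X) (U : Finset X) :
    Cseq G Z 0 U = if U = ∅ then 1 else 0 := rfl

theorem Cseq_nonneg (Z : Finset X) (T : ℕ) (U : Finset X) : 0 ≤ Cseq G Z T U := by
  induction T generalizing U with
  | zero => rw [Cseq_zero]; split_ifs <;> norm_num
  | succ T ih =>
    rw [Cseq_succ]
    unfold push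
    refine Finset.sum_nonneg (fun U₀ _ => Finset.sum_nonneg (fun g _ => ?_))
    split_ifs
    · have := ih U₀
      linarith
    · exact le_refl _

/-- Tuples whose union satisfies a union-multiplicative predicate. -/
theorem sum_Cseq_of_pred (Z : Finset X) (P : Finset X → Prop) [DecidablePred P]
    (h0 : P ∅) (hP : ∀ U V, P (U ∪ V) ↔ P U ∧ P V) (T : ℕ) :
    ∑ U : Finset X, (if P U then Cseq G Z T U else 0)
      = ((Finset.univ.filter (fun g : G => P (g • Z))).card : ℝ) ^ T := by
  induction T with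
  | zero =>
    rw [pow_zero]
    have : ∀ U : Finset X, (if P U then Cseq G Z 0 U else 0) = if U = ∅ then (1 : ℝ) else 0 := by
      intro U
      rw [Cseq_zero]
      by_cases hU : U = ∅
      · subst hU; simp [h0]
      · simp [hU]
    simp_rw [this]
    simp
  | succ T ih =>
    have h1 : ∀ U' : Finset X, (if P U' then Cseq G Z (T + 1) U' else 0)
        = (if P U' then (1 : ℝ) else 0)
          * push Z (fun (_ : Finset X) (_ : G) => (1 : ℝ)) (Cseq G Z T) U' := by
      intro U'
      rw [Cseq_succ]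
      split_ifs <;> simp
    simp_rw [h1]
    rw [sum_mul_push_aux]
    have h2 : ∀ (U : Finset X) (g : G),
        (if P (U ∪ g • Z) then (1 : ℝ) else 0) * (Cseq G Z T U * 1)
          = (if P U then Cseq G Z T U else 0) * (if P (g • Z) then (1 : ℝ) else 0) := by
      intro U g
      by_cases hU : P U <;> by_cases hg : P (g • Z) <;> simp [hP, hU, hg]
    simp_rw [h2]
    simp_rw [← Finset.mul_sum]
    rw [← Finset.sum_mul, ih, pow_succ]
    congr 1
    rw [Finset.sum_ite, Finset.sum_const_zero, add_zero, Finset.sum_const, nsmul_eq_mul, mul_one]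

omit [Fintype X] in
theorem card_filter_not_mem (Z B : Finset X) (x : X) :
    ((Finset.univ.filter (fun g : G => g • Z ⊆ B ∧ x ∉ g • Z)).card : ℝ)
      = (inj G Z B : ℝ) - (hits G Z B x : ℝ) := by
  have h := Finset.card_filter_add_card_filter_not
    (s := Finset.univ.filter (fun g : G => g • Z ⊆ B)) (fun g : G => x ∈ g • Z)
  rw [Finset.filter_filter, Finset.filter_filter] at h
  unfold inj hits
  have h' : ((Finset.univ.filter (fun g : G => g • Z ⊆ B ∧ x ∈ g • Z)).card : ℝ)
      + ((Finset.univ.filter (fun g : G => g • Z ⊆ B ∧ x ∉ g • Z)).card : ℝ)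
      = ((Finset.univ.filter (fun g : G => g • Z ⊆ B)).card : ℝ) := by
    exact_mod_cast h
  linarith

/-- **Leaf CV.** Coverage: the number of `T`-tuples of translates inside `B` whose union is
all of `B` is at least `inj^T - ∑_x (inj - hits x)^T`. -/
theorem cover (B Z : Finset X) (T : ℕ) :
    (inj G Z B : ℝ) ^ T - ∑ x ∈ B, ((inj G Z B : ℝ) - (hits G Z B x : ℝ)) ^ T
      ≤ Cseq G Z T B := by
  classical
  have hA := sum_Cseq_of_pred (G := G) Z (fun U : Finset X => U ⊆ B) (Finset.empty_subset B)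
    (fun U V => Finset.union_subset_iff) T
  have hB : ∀ x : X, ∑ U : Finset X, (if (U ⊆ B ∧ x ∉ U) then Cseq G Z T U else 0)
      = ((inj G Z B : ℝ) - (hits G Z B x : ℝ)) ^ T := by
    intro x
    have := sum_Cseq_of_pred (G := G) Z (fun U : Finset X => U ⊆ B ∧ x ∉ U)
      ⟨Finset.empty_subset B, Finset.notMem_empty x⟩
      (fun U V => by
        simp only [Finset.union_subset_iff, Finset.mem_union, not_or]
        tauto) T
    rw [this, card_filter_not_mem]
  have hinj : ((Finset.univ.filter (fun g : G => g • Z ⊆ B)).card : ℝ) = (inj G Z B : ℝ) := rfl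
  rw [hinj] at hA
  -- pointwise: 1[U ⊆ B] C(U) ≤ 1[U = B] C(B) + ∑_{x ∈ B} 1[U ⊆ B ∧ x ∉ U] C(U)
  have hpt : ∀ U : Finset X, (if U ⊆ B then Cseq G Z T U else 0)
      ≤ (if U = B then Cseq G Z T B else 0)
        + ∑ x ∈ B, (if (U ⊆ B ∧ x ∉ U) then Cseq G Z T U else 0) := by
    intro U
    have hnn : 0 ≤ ∑ x ∈ B, (if (U ⊆ B ∧ x ∉ U) then Cseq G Z T U else 0) :=
      Finset.sum_nonneg (fun x _ => by
        split_ifs
        · exact Cseq_nonneg Z T U
        · exact le_refl _)
    by_cases hUB : U ⊆ B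
    · by_cases hEq : U = B
      · rw [if_pos hUB, if_pos hEq]
        have hCB : Cseq G Z T U = Cseq G Z T B := by rw [hEq]
        linarith
      · have hss : U ⊂ B := Finset.ssubset_iff_subset_ne.mpr ⟨hUB, hEq⟩
        obtain ⟨x, hxB, hxU⟩ := Finset.exists_of_ssubset hss
        have hsingle : (if (U ⊆ B ∧ x ∉ U) then Cseq G Z T U else 0)
            ≤ ∑ y ∈ B, (if (U ⊆ B ∧ y ∉ U) then Cseq G Z T U else 0) :=
          Finset.single_le_sum (f := fun y => if (U ⊆ B ∧ y ∉ U) then Cseq G Z T U else 0)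
            (fun y _ => by
              show 0 ≤ (if (U ⊆ B ∧ y ∉ U) then Cseq G Z T U else 0)
              split_ifs
              · exact Cseq_nonneg Z T U
              · exact le_refl _) hxB
        rw [if_pos ⟨hUB, hxU⟩] at hsingle
        rw [if_pos hUB, if_neg hEq, zero_add]
        exact hsingle
    · rw [if_neg hUB]
      have : (0 : ℝ) ≤ (if U = B then Cseq G Z T B else 0) := by
        split_ifs
        · exact Cseq_nonneg Z T B
        · exact le_refl _
      linarith
  have hsum := Finset.sum_le_sum (fun U (_ : U ∈ (Finset.univ : Finset (Finset X))) => hpt U)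
  rw [hA, Finset.sum_add_distrib, Finset.sum_comm] at hsum
  have hBsum : ∑ x ∈ B, ∑ U : Finset X, (if (U ⊆ B ∧ x ∉ U) then Cseq G Z T U else 0)
      = ∑ x ∈ B, ((inj G Z B : ℝ) - (hits G Z B x : ℝ)) ^ T :=
    Finset.sum_congr rfl (fun x _ => hB x)
  rw [hBsum] at hsum
  have hfirst : ∑ U : Finset X, (if U = B then Cseq G Z T B else 0) = Cseq G Z T B := by
    simp
  rw [hfirst] at hsum
  linarith

end Crest.Agent.Helper73.S0076
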