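import Crest.Agent.Helper68.S0076.Defs

/-!
# S0076 log-spread lemma, leaf JE (helper73, hedge copy): the tangent-line (Jensen) induction

For `U ⊆ B` and every real `lam`:
`exp (-lam) * ((1 + lam) * C_T U - L_T U) ≤ A_T U`,
where `A_T = Aseq (qw)`, `C_T = Cseq`, `L_T = Lseq`.  Induction on `T` for all `(U, lam)`:
on every step `U ↦ U ∪ g • Z` that stays inside `B` the code weight is `exp (- cost)`.
-/

set_option autoImplicit false

namespace Crest.Agent.Helper73.S0076.JE

open Finset Crest.Agent.Helper68.S0076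
open scoped Pointwise

variable {G : Type*} {X : Type*} [Group G] [Fintype G] [Fintype X] [DecidableEq X] [MulAction G X]

omit [Fintype G] [Fintype X] in
theorem knew_le (Z U : Finset X) (g : G) : knew Z U g ≤ Z.card := by
  unfold knew
  calc ((g • Z) \ U).card ≤ (g • Z).card := Finset.card_le_card Finset.sdiff_subset
    _ = Z.card := Finset.card_smul_finset g Z

omit [Fintype G] [Fintype X] in
/-- On a step that stays inside `B` the code weight is `exp (- cost)`. -/
theorem qw_eq_exp_neg_cost (B Z : Finset X) (ω : ℝ) (hω : 0 < ω)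
    (hωE : ω * (B.card : ℝ) ≤ (Z.card : ℝ)) (hZ : 0 < Z.card)
    (U : Finset X) (g : G) (hU : U ⊆ B) (hg : g • Z ⊆ B) :
    qw ω B.card Z U g = Real.exp (-cost ω B.card Z U g) := by
  have hk := knew_le Z U g
  have hm : (0 : ℝ) < (Z.card : ℝ) := by exact_mod_cast hZ
  unfold qw cost
  by_cases h0 : U.card = 0
  · -- U = ∅ : ν = 1, every slot is new
    have hUe : U = ∅ := Finset.card_eq_zero.mp h0
    have hnu : nu ω B.card Z.card U.card = 1 := by unfold nu; rw [if_pos h0]
    have hkm : knew Z U g = Z.card := by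
      unfold knew
      rw [hUe, Finset.sdiff_empty, Finset.card_smul_finset]
    rw [hnu, hkm]
    simp
  · by_cases hUB : U = B
    · -- U = B : ν = 0, no slot is new
      have hnu : nu ω B.card Z.card U.card = 0 := by
        unfold nu
        rw [if_neg h0, hUB, Nat.sub_self]
        simp
      have hk0 : knew Z U g = 0 := by
        unfold knew
        rw [Finset.card_eq_zero, Finset.sdiff_eq_empty_iff_subset, hUB]
        exact hg
      rw [hnu, hk0]
      simp
    · -- ∅ ≠ U ⊊ B : 0 < ν < 1
      have hss : U ⊂ B := Finset.ssubset_iff_subset_ne.mpr ⟨hU, hUB⟩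
      have hlt : U.card < B.card := Finset.card_lt_card hss
      have hupos : 0 < U.card := Nat.pos_of_ne_zero h0
      set ν := nu ω B.card Z.card U.card with hνdef
      have hν : ν = ω * ((B.card - U.card : ℕ) : ℝ) / (Z.card : ℝ) := by
        rw [hνdef]; unfold nu; rw [if_neg h0]
      have hcast : ((B.card - U.card : ℕ) : ℝ) = (B.card : ℝ) - (U.card : ℝ) := by
        rw [Nat.cast_sub hlt.le]
      have hUr : (0 : ℝ) < (U.card : ℝ) := by exact_mod_cast hupos
      have hBUr : (U.card : ℝ) < (B.card : ℝ) := by exact_mod_cast hlt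
      have hνpos : 0 < ν := by
        rw [hν, hcast]
        apply div_pos (mul_pos hω (by linarith)) hm
      have hνlt : ν < 1 := by
        rw [hν, hcast, div_lt_one hm]
        nlinarith [mul_pos hω hUr]
      have h1ν : 0 < 1 - ν := by linarith
      have hsub : ((Z.card - knew Z U g : ℕ) : ℝ) = (Z.card : ℝ) - (knew Z U g : ℝ) := by
        rw [Nat.cast_sub hk]
      rw [Real.log_div one_ne_zero hνpos.ne', Real.log_div one_ne_zero h1ν.ne', Real.log_one]
      rw [← hsub]
      have e1 : ν ^ knew Z U g = Real.exp ((knew Z U g : ℝ) * Real.log ν) := by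
        rw [mul_comm, Real.exp_mul, Real.exp_log hνpos, Real.rpow_natCast]
      have e2 : (1 - ν) ^ (Z.card - knew Z U g)
          = Real.exp (((Z.card - knew Z U g : ℕ) : ℝ) * Real.log (1 - ν)) := by
        rw [mul_comm, Real.exp_mul, Real.exp_log h1ν, Real.rpow_natCast]
      rw [e1, e2, ← Real.exp_add]
      congr 1
      ring

theorem Aseq_succ (Z : Finset X) (wt : Finset X → G → ℝ) (T : ℕ) :
    Aseq Z wt (T + 1) = push Z wt (Aseq Z wt T) := rfl

theorem Cseq_succ_apply (Z : Finset X) (T : ℕ) (U' : Finset X) :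
    Cseq G Z (T + 1) U'
      = ∑ U : Finset X, ∑ g : G, if U ∪ g • Z = U' then Cseq G Z T U * 1 else 0 := rfl

theorem Lseq_succ_apply (ω : ℝ) (E : ℕ) (Z : Finset X) (T : ℕ) (U' : Finset X) :
    Lseq G ω E Z (T + 1) U'
      = ∑ U : Finset X, ∑ g : G,
          if U ∪ g • Z = U' then (Lseq G ω E Z T U + Cseq G Z T U * cost ω E Z U g) else 0 := rfl

/-- **Leaf JE.** The tangent-line (Jensen) induction. -/
theorem jensen (B Z : Finset X) (ω : ℝ) (hω : 0 < ω) (hωE : ω * (B.card : ℝ) ≤ (Z.card : ℝ))
    (hZ : 0 < Z.card) (T : ℕ) (U : Finset X) (hU : U ⊆ B) (lam : ℝ) :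
    Real.exp (-lam) * ((1 + lam) * Cseq G Z T U - Lseq G ω B.card Z T U)
      ≤ Aseq Z (qw (G := G) ω B.card Z) T U := by
  induction T generalizing U lam with
  | zero =>
    have hC : Cseq G Z 0 U = if U = ∅ then 1 else 0 := rfl
    have hL : Lseq G ω B.card Z 0 U = 0 := rfl
    have hA : Aseq Z (qw (G := G) ω B.card Z) 0 U = if U = ∅ then 1 else 0 := rfl
    rw [hC, hL, hA]
    by_cases hUe : U = ∅
    · rw [if_pos hUe, mul_one, sub_zero]
      have h1 : 1 + lam ≤ Real.exp lam := by
        have := Real.add_one_le_exp lam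
        linarith
      have h2 : Real.exp (-lam) * Real.exp lam = 1 := by
        rw [← Real.exp_add]; simp
      calc Real.exp (-lam) * (1 + lam) ≤ Real.exp (-lam) * Real.exp lam :=
            mul_le_mul_of_nonneg_left h1 (Real.exp_pos _).le
        _ = 1 := h2
    · rw [if_neg hUe]
      simp
  | succ T ih =>
    rw [Cseq_succ_apply, Lseq_succ_apply, Aseq_succ]
    unfold push
    rw [Finset.mul_sum, ← Finset.sum_sub_distrib, Finset.mul_sum]
    refine Finset.sum_le_sum (fun U₀ _ => ?_)
    rw [Finset.mul_sum, ← Finset.sum_sub_distrib, Finset.mul_sum]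
    refine Finset.sum_le_sum (fun g _ => ?_)
    by_cases hstep : U₀ ∪ g • Z = U
    · rw [if_pos hstep, if_pos hstep, if_pos hstep]
      have hU₀ : U₀ ⊆ B := (Finset.subset_union_left).trans (hstep ▸ hU)
      have hgZ : g • Z ⊆ B := (Finset.subset_union_right).trans (hstep ▸ hU)
      have hq := qw_eq_exp_neg_cost B Z ω hω hωE hZ U₀ g hU₀ hgZ
      have hih := ih U₀ hU₀ (lam - cost ω B.card Z U₀ g)
      have hqpos : 0 ≤ qw ω B.card Z U₀ g := by rw [hq]; exact (Real.exp_pos _).le
      have hmul := mul_le_mul_of_nonneg_right hih hqpos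
      have hexp : Real.exp (-(lam - cost ω B.card Z U₀ g)) * qw ω B.card Z U₀ g
          = Real.exp (-lam) := by
        rw [hq, ← Real.exp_add]
        congr 1
        ring
      calc Real.exp (-lam) * ((1 + lam) * (Cseq G Z T U₀ * 1)
              - (Lseq G ω B.card Z T U₀ + Cseq G Z T U₀ * cost ω B.card Z U₀ g))
          = (Real.exp (-(lam - cost ω B.card Z U₀ g)) * qw ω B.card Z U₀ g)
              * ((1 + (lam - cost ω B.card Z U₀ g)) * Cseq G Z T U₀
                  - Lseq G ω B.card Z T U₀) := by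
            rw [hexp]; ring
        _ = Real.exp (-(lam - cost ω B.card Z U₀ g))
              * ((1 + (lam - cost ω B.card Z U₀ g)) * Cseq G Z T U₀
                  - Lseq G ω B.card Z T U₀) * qw ω B.card Z U₀ g := by ring
        _ ≤ Aseq Z (qw (G := G) ω B.card Z) T U₀ * qw ω B.card Z U₀ g := hmul
    · rw [if_neg hstep, if_neg hstep, if_neg hstep]
      simp

end Crest.Agent.Helper73.S0076.JE
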